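import Vale.Agent.P263.LZ.Trans

/-!
Hung's algebraic version of Curtis's conjecture.

The homology of Singer's complex `Γ⁺` in homological degree `s` is `Tor_s` over the mod 2 Steenrod
algebra, and the inclusion of the Dickson algebra `D_s` into `Γ⁺_s` represents the dual of the
Lannes-Zarati homomorphism (Hung). The theorem says that every element of positive degree of `D_s`,
`s ≥ 3`, is a boundary.
-/

namespace Vale.Agent.Results.P263.LannesZarati

open Vale.Agent.P263.LZ

theorem result (s : ℕ) (hs : 3 ≤ s) (x : Lau) (hx : x ∈ DicksonPlus s) :
    ∃ y ∈ GammaPlus (s + 1), bdry s y = x :=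
  dickson_bdry s hs x hx

end Vale.Agent.Results.P263.LannesZarati
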